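import Mathlib

open MeasureTheory Metric Set Module
open scoped ENNReal RealInnerProductSpace Pointwise

namespace Vale.Agent.Lib.P309

variable {E : Type*} [NormedAddCommGroup E] [InnerProductSpace ℝ E] [FiniteDimensional ℝ E]

/-- the linear map `x ↦ c x + (1-c) ⟪u,x⟫ u`. -/
noncomputable def squeeze (u : E) (c : ℝ) : E →ₗ[ℝ] E :=
  c • LinearMap.transvection (((1 - c) / c) • (innerₛₗ ℝ u)) u

lemma squeeze_apply (u : E) {c : ℝ} (hc : c ≠ 0) (x : E) :
    squeeze u c x = c • x + ((1 - c) * ⟪u, x⟫) • u := by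
  simp only [squeeze, LinearMap.smul_apply, LinearMap.transvection, LinearMap.coe_mk,
    AddHom.coe_mk, smul_add, smul_smul, innerₛₗ_apply_apply, smul_eq_mul]
  congr 2
  field_simp

lemma det_squeeze (u : E) (hu : ‖u‖ = 1) {c : ℝ} (hc : 0 < c) (hd : 1 ≤ finrank ℝ E) :
    LinearMap.det (squeeze u c) = c ^ (finrank ℝ E - 1) := by
  rw [squeeze, LinearMap.det_smul, LinearMap.transvection.det]
  simp only [LinearMap.smul_apply, innerₛₗ_apply_apply, real_inner_self_eq_norm_sq, hu, smul_eq_mul]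
  obtain ⟨n, hn⟩ : ∃ n, finrank ℝ E = n + 1 := ⟨finrank ℝ E - 1, by omega⟩
  rw [hn]
  simp only [Nat.add_sub_cancel, pow_succ]
  field_simp
  ring

/-- The truncated cone over a spherical cap is inside the squeezed ball of radius `√2`. -/
lemma cone_subset (u : E) (hu : ‖u‖ = 1) {ε : ℝ} (h0 : 0 < ε) (h1 : ε ≤ Real.pi / 2)
    (C : Set E) (hC : ∀ s ∈ C, ‖s‖ = 1 ∧ Real.cos ε ≤ ⟪u, s⟫) :
    Ioo (0 : ℝ) 1 • C ⊆ squeeze u (Real.sin ε) '' ball 0 (Real.sqrt 2) := by
  have hc : 0 < Real.sin ε := Real.sin_pos_of_pos_of_lt_pi h0 (by linarith [Real.pi_pos])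
  have hcos : 0 ≤ Real.cos ε := Real.cos_nonneg_of_neg_pi_div_two_le_of_le (by linarith) h1
  rintro x ⟨r, ⟨hr0, hr1⟩, s, hs, rfl⟩
  obtain ⟨hs1, hs2⟩ := hC s hs
  set c := Real.sin ε with hcdef
  set a := ⟪u, s⟫ with ha
  -- preimage
  have horth : ⟪s - a • u, u⟫ = 0 := by
    rw [inner_sub_left, inner_smul_left, real_inner_self_eq_norm_sq, hu, real_inner_comm]
    simp [ha]
  have hn1 : ‖s - a • u‖ ^ 2 = 1 - a ^ 2 := by
    rw [norm_sub_sq_real, inner_smul_right, norm_smul, hs1, hu, real_inner_comm, ← ha]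
    simp only [Real.norm_eq_abs, mul_one, sq_abs]
    ring
  refine ⟨(r / c) • (s - a • u) + (r * a) • u, ?_, ?_⟩
  · rw [mem_ball_zero_iff]
    have hn2 : ‖(r / c) • (s - a • u) + (r * a) • u‖ ^ 2 = (r / c) ^ 2 * (1 - a ^ 2) + (r * a) ^ 2 := by
      rw [norm_add_sq_real, inner_smul_left, inner_smul_right, horth, norm_smul, norm_smul, hu,
        mul_pow, hn1]
      simp only [Real.norm_eq_abs, sq_abs, mul_one, mul_zero, add_zero]
    have ha2 : a ^ 2 ≤ 1 := by nlinarith [sq_nonneg ‖s - a • u‖]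
    have hsc : c ^ 2 + Real.cos ε ^ 2 = 1 := Real.sin_sq_add_cos_sq ε
    have h3 : 1 - a ^ 2 ≤ c ^ 2 := by nlinarith
    have h4 : (r / c) ^ 2 * (1 - a ^ 2) ≤ r ^ 2 := by
      rw [div_pow, div_mul_eq_mul_div, div_le_iff₀ (by positivity)]
      exact mul_le_mul_of_nonneg_left h3 (by positivity)
    have h5 : (r * a) ^ 2 ≤ r ^ 2 := by
      rw [mul_pow]; nlinarith [sq_nonneg r]
    have h6 : r ^ 2 < 1 := by nlinarith
    apply Real.lt_sqrt_of_sq_lt
    rw [hn2]; linarith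
  · rw [squeeze_apply u hc.ne']
    have hin : ⟪u, (r / c) • (s - a • u) + (r * a) • u⟫ = r * a := by
      rw [inner_add_right, inner_smul_right, inner_smul_right, real_inner_comm, horth,
        real_inner_self_eq_norm_sq, hu]
      ring
    rw [hin, smul_add, smul_smul, smul_smul, mul_div_cancel₀ _ hc.ne', smul_sub, smul_smul,
      add_assoc, ← add_smul, sub_add, ← sub_smul]
    have : r * a - (c * (r * a) + (1 - c) * (r * a)) = 0 := by ring
    rw [this]; simp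

/-- Explicit upper bound for the normalised surface measure of a spherical cap. -/
lemma cap_measure_le [MeasurableSpace E] [BorelSpace E] (μ : Measure E) [μ.IsAddHaarMeasure]
    (hd : 1 ≤ finrank ℝ E) (u : E) (hu : ‖u‖ = 1) {ε : ℝ} (h0 : 0 < ε) (h1 : ε ≤ Real.pi / 2) :
    ((μ.toSphere univ)⁻¹ • μ.toSphere) {s : sphere (0 : E) 1 | Real.arccos ⟪u, (s : E)⟫ ≤ ε}
      ≤ ENNReal.ofReal (Real.sqrt 2 ^ finrank ℝ E * Real.sin ε ^ (finrank ℝ E - 1)) := by
  have hc : 0 < Real.sin ε := Real.sin_pos_of_pos_of_lt_pi h0 (by linarith [Real.pi_pos])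
  have hmeas : MeasurableSet {s : sphere (0 : E) 1 | Real.arccos ⟪u, (s : E)⟫ ≤ ε} := by
    apply measurableSet_le _ measurable_const
    exact Real.measurable_arccos.comp (measurable_const.inner measurable_subtype_coe)
  rw [Measure.smul_apply, Measure.toSphere_apply' _ hmeas, Measure.toSphere_apply_univ, smul_eq_mul]
  have hsub := cone_subset u hu h0 h1
    ((↑) '' {s : sphere (0 : E) 1 | Real.arccos ⟪u, (s : E)⟫ ≤ ε}) (by
      rintro _ ⟨s, hs, rfl⟩
      refine ⟨by simpa using s.2, ?_⟩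
      have hs' : Real.arccos ⟪u, (s : E)⟫ ≤ ε := hs
      have hb : |⟪u, (s : E)⟫| ≤ 1 := by
        have := abs_real_inner_le_norm u (s : E)
        have hs1 : ‖(s : E)‖ = 1 := by simpa using s.2
        rwa [hu, hs1, mul_one] at this
      rw [abs_le] at hb
      calc Real.cos ε ≤ Real.cos (Real.arccos ⟪u, (s : E)⟫) :=
            Real.cos_le_cos_of_nonneg_of_le_pi (Real.arccos_nonneg _)
              (by linarith [Real.pi_pos]) hs'
        _ = ⟪u, (s : E)⟫ := Real.cos_arccos hb.1 hb.2)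
  have hV0 : μ (ball (0 : E) 1) ≠ 0 := (measure_ball_pos μ 0 one_pos).ne'
  have hVt : μ (ball (0 : E) 1) ≠ ⊤ := measure_ball_lt_top.ne
  have hdn : ((finrank ℝ E : ℕ) : ℝ≥0∞) ≠ 0 := by
    simp only [ne_eq, Nat.cast_eq_zero]; omega
  calc (↑(finrank ℝ E) * μ (ball 0 1))⁻¹ * (↑(finrank ℝ E) * μ (Ioo (0 : ℝ) 1 •
          ((↑) '' {s : sphere (0 : E) 1 | Real.arccos ⟪u, (s : E)⟫ ≤ ε})))
      ≤ (↑(finrank ℝ E) * μ (ball 0 1))⁻¹ * (↑(finrank ℝ E) *
          μ (squeeze u (Real.sin ε) '' ball 0 (Real.sqrt 2))) := by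
        gcongr
    _ = (↑(finrank ℝ E) * μ (ball 0 1))⁻¹ * (↑(finrank ℝ E) *
          (ENNReal.ofReal (Real.sin ε ^ (finrank ℝ E - 1)) *
            (ENNReal.ofReal (Real.sqrt 2 ^ finrank ℝ E) * μ (ball 0 1)))) := by
        rw [Measure.addHaar_image_linearMap, det_squeeze u hu hc hd,
          Measure.addHaar_ball_of_pos μ 0 (by positivity : (0 : ℝ) < Real.sqrt 2),
          abs_of_nonneg (by positivity)]
    _ = ((↑(finrank ℝ E) * μ (ball 0 1))⁻¹ * (↑(finrank ℝ E) * μ (ball 0 1))) *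
          (ENNReal.ofReal (Real.sqrt 2 ^ finrank ℝ E) *
            ENNReal.ofReal (Real.sin ε ^ (finrank ℝ E - 1))) := by ring
    _ = ENNReal.ofReal (Real.sqrt 2 ^ finrank ℝ E * Real.sin ε ^ (finrank ℝ E - 1)) := by
        rw [ENNReal.inv_mul_cancel (mul_ne_zero hdn hV0)
          (ENNReal.mul_ne_top (ENNReal.natCast_ne_top _) hVt), one_mul,
          ENNReal.ofReal_mul (by positivity)]

end Vale.Agent.Lib.P309
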